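import Mathlib

/-! P034: the flagged chain lemma (helper28), abstract in the flag function. -/

namespace Vale.Agent.H28.P034

open Finset

variable {α : Type*} [Fintype α] [DecidableEq α]

/-- `I_Z(O)`. -/
noncomputable def II (γ : Finset α → ℝ) (s : ℝ) (O Z : Finset α) : ℝ :=
  ∑ S : Finset α, if Z ⊆ S \ O then γ S * s ^ ((S \ O) \ Z).card else 0

/-- `e_D(O,S)` -/
noncomputable def ee (F : Finset α → Finset α → Finset α) (s D : ℝ) (O S : Finset α) : ℝ :=
  s ^ ((S \ O) \ F O S).card * D ^ (F O S).card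

/-- `Λ_D(O)` -/
noncomputable def LamD (γ : Finset α → ℝ) (F : Finset α → Finset α → Finset α) (s D : ℝ)
    (O : Finset α) : ℝ := ∑ S : Finset α, γ S * ee F s D O S

/-- kernel numerators -/
noncomputable def TT (γ : Finset α → ℝ) (F : Finset α → Finset α → Finset α) (s D : ℝ)
    (O Y : Finset α) : ℝ :=
  if Y.Nonempty ∧ Disjoint Y O then
    ∑ S : Finset α, (if Y ⊆ F O S then γ S * ee F s D (O ∪ Y) S else 0) else 0

theorem ee_nonneg (F : Finset α → Finset α → Finset α) {s D : ℝ} (hs : 0 ≤ s) (hD : 0 ≤ D)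
    (O S : Finset α) : 0 ≤ ee F s D O S := mul_nonneg (pow_nonneg hs _) (pow_nonneg hD _)

theorem TT_nonneg {γ : Finset α → ℝ} (hγ : ∀ S, 0 ≤ γ S) (F : Finset α → Finset α → Finset α)
    {s D : ℝ} (hs : 0 ≤ s) (hD : 0 ≤ D) (O Y : Finset α) : 0 ≤ TT γ F s D O Y := by
  unfold TT
  split_ifs
  · refine Finset.sum_nonneg (fun S _ => ?_)
    split_ifs
    · exact mul_nonneg (hγ S) (ee_nonneg F hs hD _ _)
    · exact le_refl _
  · exact le_refl _

theorem LamD_nonneg {γ : Finset α → ℝ} (hγ : ∀ S, 0 ≤ γ S) (F : Finset α → Finset α → Finset α)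
    {s D : ℝ} (hs : 0 ≤ s) (hD : 0 ≤ D) (O : Finset α) : 0 ≤ LamD γ F s D O :=
  Finset.sum_nonneg (fun S _ => mul_nonneg (hγ S) (ee_nonneg F hs hD _ _))

theorem LamD_mono {γ : Finset α → ℝ} (hγ : ∀ S, 0 ≤ γ S) (F : Finset α → Finset α → Finset α)
    {s D D' : ℝ} (hs : 0 ≤ s) (hD : 0 ≤ D) (h : D ≤ D') (O : Finset α) :
    LamD γ F s D O ≤ LamD γ F s D' O :=
  Finset.sum_le_sum (fun S _ => mul_le_mul_of_nonneg_left
    (mul_le_mul_of_nonneg_left (pow_le_pow_left₀ hD h _) (pow_nonneg hs _)) (hγ S))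

/-- monotonicity in the flags: more flags, smaller weight -/
theorem pow_flag_le {s D : ℝ} (hs : 0 ≤ s) (hD : 0 ≤ D) (hDs : D ≤ s) {A B R : Finset α}
    (hAB : A ⊆ B) (hBR : B ⊆ R) :
    s ^ (R \ B).card * D ^ B.card ≤ s ^ (R \ A).card * D ^ A.card := by
  have h1 : (R \ A).card = (R \ B).card + (B \ A).card := by
    rw [← Finset.card_union_of_disjoint]
    · congr 1
      ext x
      simp only [mem_sdiff, mem_union]
      constructor
      · rintro ⟨h, h'⟩
        by_cases hB : x ∈ B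
        · exact Or.inr ⟨hB, h'⟩
        · exact Or.inl ⟨h, hB⟩
      · rintro (⟨h, h'⟩ | ⟨h, h'⟩)
        · exact ⟨h, fun hA => h' (hAB hA)⟩
        · exact ⟨hBR h, h'⟩
    · rw [Finset.disjoint_left]
      intro x hx hx'
      exact (mem_sdiff.mp hx).2 (mem_sdiff.mp hx').1
  have h2 : B.card = A.card + (B \ A).card := by
    rw [Finset.card_sdiff_of_subset hAB]
    have := Finset.card_le_card hAB
    omega
  rw [h1, h2, pow_add, pow_add]
  have h3 : D ^ (B \ A).card ≤ s ^ (B \ A).card := pow_le_pow_left₀ hD hDs _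
  have h4 : 0 ≤ s ^ (R \ B).card * D ^ A.card := mul_nonneg (pow_nonneg hs _) (pow_nonneg hD _)
  nlinarith

section
variable {γ : Finset α → ℝ} (hγ : ∀ S, 0 ≤ γ S) {F : Finset α → Finset α → Finset α}
  {W : Finset α}
  (hF1 : ∀ O S, F O S ⊆ S \ O)
  (hF2 : ∀ O O1 S, W ⊆ O → O ⊆ O1 → F O S \ O1 ⊆ F O1 S)
  {s D d : ℝ} (hs : 0 ≤ s) (hD : 0 ≤ D) (hd : 0 ≤ d) (hDs : D + d ≤ s)

include hγ hF1 hF2 hs hD hd hDs in
/-- (b): cost of one step -/
theorem sum_TT_pow {O : Finset α} (hO : W ⊆ O) :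
    ∑ Y : Finset α, TT γ F s D O Y * d ^ Y.card ≤ LamD γ F s (D + d) O - LamD γ F s D O := by
  have hDs' : D ≤ s := by linarith
  have h5 : ∀ Y : Finset α, TT γ F s D O Y * d ^ Y.card
      ≤ ∑ S : Finset α, γ S * (if Y.Nonempty ∧ Y ⊆ F O S then
        s ^ ((S \ O) \ F O S).card * (D ^ (F O S \ Y).card * d ^ Y.card) else 0) := by
    intro Y
    unfold TT
    by_cases h : Y.Nonempty ∧ Disjoint Y O
    · rw [if_pos h, Finset.sum_mul]
      refine Finset.sum_le_sum (fun S _ => ?_)
      by_cases h6 : Y ⊆ F O S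
      · rw [if_pos h6, if_pos ⟨h.1, h6⟩]
        have e1 : S \ (O ∪ Y) = (S \ O) \ Y := by
          ext x; simp only [mem_sdiff, mem_union]; tauto
        have hsub : F O S \ Y ⊆ F (O ∪ Y) S := by
          intro x hx
          rw [mem_sdiff] at hx
          apply hF2 O (O ∪ Y) S hO subset_union_left
          rw [mem_sdiff, mem_union]
          refine ⟨hx.1, ?_⟩
          rintro (h1 | h1)
          · exact (mem_sdiff.mp (hF1 O S hx.1)).2 h1
          · exact hx.2 h1
        have h7 := pow_flag_le hs hD hDs' hsub (hF1 (O ∪ Y) S)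
        have e2 : (S \ (O ∪ Y)) \ (F O S \ Y) = (S \ O) \ F O S := by
          rw [e1]
          ext x; simp only [mem_sdiff]
          constructor
          · rintro ⟨⟨⟨h1, h2⟩, h3⟩, h4⟩
            exact ⟨⟨h1, h2⟩, fun h5 => h4 ⟨h5, h3⟩⟩
          · rintro ⟨⟨h1, h2⟩, h3⟩
            exact ⟨⟨⟨h1, h2⟩, fun h4 => h3 (h6 h4)⟩, fun h4 => h3 h4.1⟩
        rw [e2] at h7
        unfold ee
        calc γ S * (s ^ ((S \ (O ∪ Y)) \ F (O ∪ Y) S).card * D ^ (F (O ∪ Y) S).card) * d ^ Y.card
            ≤ γ S * (s ^ ((S \ O) \ F O S).card * D ^ (F O S \ Y).card) * d ^ Y.card :=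
              mul_le_mul_of_nonneg_right (mul_le_mul_of_nonneg_left h7 (hγ S)) (pow_nonneg hd _)
          _ = _ := by ring
      · rw [if_neg h6, if_neg (fun h7 => h6 h7.2)]
        simp
    · rw [if_neg h, zero_mul]
      refine Finset.sum_nonneg (fun S _ => mul_nonneg (hγ S) ?_)
      split_ifs
      · positivity
      · exact le_refl _
  have key : ∀ S : Finset α,
      (∑ Y : Finset α, (if Y.Nonempty ∧ Y ⊆ F O S then
        s ^ ((S \ O) \ F O S).card * (D ^ (F O S \ Y).card * d ^ Y.card) else 0))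
        = ee F s (D + d) O S - ee F s D O S := by
    intro S
    have h1 : (∑ Y ∈ (F O S).powerset, d ^ Y.card * D ^ ((F O S).card - Y.card))
        = (d + D) ^ (F O S).card := Finset.sum_pow_mul_eq_add_pow d D (F O S)
    have h2 : (∑ Y : Finset α, (if Y.Nonempty ∧ Y ⊆ F O S then
        s ^ ((S \ O) \ F O S).card * (D ^ (F O S \ Y).card * d ^ Y.card) else 0))
        = s ^ ((S \ O) \ F O S).card * ∑ Y ∈ (F O S).powerset.erase ∅,
            d ^ Y.card * D ^ ((F O S).card - Y.card) := by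
      rw [← Finset.sum_filter, Finset.mul_sum]
      refine Finset.sum_congr ?_ ?_
      · ext Y
        simp only [Finset.mem_filter, Finset.mem_univ, true_and, Finset.mem_erase,
          Finset.mem_powerset, ne_eq, Finset.nonempty_iff_ne_empty]
      · intro Y hY
        rw [Finset.mem_erase, Finset.mem_powerset] at hY
        rw [Finset.card_sdiff_of_subset hY.2]
        ring
    rw [h2]
    have h4 : (∅ : Finset α) ∈ (F O S).powerset := Finset.empty_mem_powerset _
    rw [← Finset.add_sum_erase _ _ h4] at h1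
    simp only [Finset.card_empty, pow_zero, one_mul, Nat.sub_zero] at h1
    unfold ee
    rw [add_comm D d, ← h1]; ring
  calc ∑ Y : Finset α, TT γ F s D O Y * d ^ Y.card
      ≤ ∑ Y : Finset α, ∑ S : Finset α, γ S * (if Y.Nonempty ∧ Y ⊆ F O S then
        s ^ ((S \ O) \ F O S).card * (D ^ (F O S \ Y).card * d ^ Y.card) else 0) :=
        Finset.sum_le_sum fun Y _ => h5 Y
    _ = ∑ S : Finset α, γ S * (ee F s (D + d) O S - ee F s D O S) := by
        rw [Finset.sum_comm]
        refine Finset.sum_congr rfl (fun S _ => ?_)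
        rw [← Finset.mul_sum, key S]
    _ = _ := by
        unfold LamD
        rw [← Finset.sum_sub_distrib]
        exact Finset.sum_congr rfl fun S _ => by ring

/-- mass of the unflagged traces -/
theorem unflagged_le {N : ℝ} (hN : 0 < N) {V O : Finset α} {ν : ℕ} (hν : (V \ O).card ≤ ν) :
    ∑ Y ∈ (V \ O).powerset.erase ∅, (N⁻¹) ^ Y.card ≤ (1 + N⁻¹) ^ ν - 1 := by
  have h1 : (∑ Y ∈ (V \ O).powerset, (N⁻¹) ^ Y.card * 1 ^ ((V \ O).card - Y.card))
      = (N⁻¹ + 1) ^ (V \ O).card := Finset.sum_pow_mul_eq_add_pow _ _ _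
  simp only [one_pow, mul_one] at h1
  rw [← Finset.add_sum_erase _ _ (Finset.empty_mem_powerset _)] at h1
  simp only [Finset.card_empty, pow_zero] at h1
  have h2 : (N⁻¹ + 1) ^ (V \ O).card ≤ (1 + N⁻¹) ^ ν := by
    rw [add_comm]
    apply pow_le_pow_right₀ _ hν
    have : 0 < N⁻¹ := inv_pos.mpr hN
    linarith
  linarith

include hγ hF1 hF2 hs hD hd hDs in
/-- (a): coverage of one step -/
theorem le_sum_TT {N : ℝ} (hN : 0 < N)
    (hF3 : ∀ O S Y, W ⊆ O → Y.Nonempty → Y ⊆ S \ O → ¬ Y ⊆ F O S → II γ s O Y ≤ (N⁻¹) ^ Y.card)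
    {V O : Finset α} (hO : W ⊆ O) (hOV : O ⊆ V) {ν : ℕ} (hν : (V \ O).card ≤ ν) :
    LamD γ F s D V - LamD γ F s D O - ((1 + N⁻¹) ^ ν - 1)
      ≤ ∑ Y ∈ V.powerset, TT γ F s D O Y := by
  have hDs' : D ≤ s := by linarith
  -- the trace of `S` on `V \ O`
  have hV : W ⊆ V := hO.trans hOV
  have hFV : ∀ S : Finset α, F O S \ V ⊆ F V S := fun S => hF2 O V S hO hOV
  have hTT : ∀ Y : Finset α, TT γ F s D O Y
      = ∑ S : Finset α, γ S * (if Y.Nonempty ∧ Disjoint Y O ∧ Y ⊆ F O S then
        ee F s D (O ∪ Y) S else 0) := by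
    intro Y
    unfold TT
    by_cases h : Y.Nonempty ∧ Disjoint Y O
    · rw [if_pos h]
      refine Finset.sum_congr rfl (fun S _ => ?_)
      by_cases h6 : Y ⊆ F O S
      · rw [if_pos h6, if_pos ⟨h.1, h.2, h6⟩]
      · rw [if_neg h6, if_neg (fun h7 => h6 h7.2.2)]; ring
    · rw [if_neg h]
      symm
      refine Finset.sum_eq_zero (fun S _ => ?_)
      rw [if_neg (fun h7 => h ⟨h7.1, h7.2.1⟩), mul_zero]
  -- split the sets `S`
  have hsplit : ∀ S : Finset α, γ S * ee F s D V S ≤ γ S * ee F s D O S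
      + γ S * (∑ Y ∈ V.powerset, (if Y.Nonempty ∧ Disjoint Y O ∧ Y ⊆ F O S then
        ee F s D (O ∪ Y) S else 0))
      + (if ((S ∩ V) \ O).Nonempty ∧ ¬ (S ∩ V) \ O ⊆ F O S then
          γ S * s ^ (S \ V).card else 0) := by
    intro S
    have hnn : ∀ Y ∈ V.powerset, 0 ≤ (if Y.Nonempty ∧ Disjoint Y O ∧ Y ⊆ F O S then
        ee F s D (O ∪ Y) S else 0) := by
      intro Y _
      split_ifs
      · exact ee_nonneg F hs hD _ _
      · exact le_refl _
    have hnn2 : 0 ≤ γ S * (∑ Y ∈ V.powerset, (if Y.Nonempty ∧ Disjoint Y O ∧ Y ⊆ F O S then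
        ee F s D (O ∪ Y) S else 0)) := mul_nonneg (hγ S) (Finset.sum_nonneg hnn)
    have hnn3 : 0 ≤ γ S * ee F s D O S := mul_nonneg (hγ S) (ee_nonneg F hs hD _ _)
    by_cases hne : ((S ∩ V) \ O).Nonempty
    · by_cases hfl : (S ∩ V) \ O ⊆ F O S
      · rw [if_neg (fun h => h.2 hfl)]
        have h1 : (S ∩ V) \ O ∈ V.powerset := by
          rw [Finset.mem_powerset]
          exact Finset.sdiff_subset.trans Finset.inter_subset_right
        have h2 := Finset.single_le_sum hnn h1
        rw [if_pos ⟨hne, Finset.sdiff_disjoint, hfl⟩] at h2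
        have hOY : O ∪ ((S ∩ V) \ O) ⊆ V := by
          apply Finset.union_subset hOV
          exact Finset.sdiff_subset.trans Finset.inter_subset_right
        have h3 : S \ (O ∪ ((S ∩ V) \ O)) = S \ V := by
          ext x
          simp only [Finset.mem_sdiff, Finset.mem_union, Finset.mem_inter]
          constructor
          · rintro ⟨hx, hx2⟩
            refine ⟨hx, fun hU => hx2 ?_⟩
            by_cases hV : x ∈ O
            · exact Or.inl hV
            · exact Or.inr ⟨⟨hx, hU⟩, hV⟩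
          · rintro ⟨hx, hx2⟩
            refine ⟨hx, ?_⟩
            rintro (hV | ⟨⟨_, hU⟩, _⟩)
            · exact hx2 (hOV hV)
            · exact hx2 hU
        have h4 : F (O ∪ ((S ∩ V) \ O)) S ⊆ F V S := by
          intro x hx
          have hx1 := mem_sdiff.mp (hF1 _ _ hx)
          apply hF2 _ V S (hO.trans subset_union_left) hOY
          rw [mem_sdiff]
          refine ⟨hx, fun hxV => ?_⟩
          have : x ∈ S \ V := by rw [← h3, mem_sdiff]; exact hx1
          exact (mem_sdiff.mp this).2 hxV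
        have h5 : ee F s D V S ≤ ee F s D (O ∪ ((S ∩ V) \ O)) S := by
          unfold ee
          rw [h3]
          exact pow_flag_le hs hD hDs' h4 (hF1 V S)
        have h6 : γ S * ee F s D V S ≤ γ S * (∑ Y ∈ V.powerset,
            (if Y.Nonempty ∧ Disjoint Y O ∧ Y ⊆ F O S then ee F s D (O ∪ Y) S else 0)) :=
          mul_le_mul_of_nonneg_left (h5.trans h2) (hγ S)
        linarith
      · rw [if_pos ⟨hne, hfl⟩]
        have h5 : ee F s D V S ≤ s ^ (S \ V).card := by
          unfold ee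
          have := pow_flag_le hs hD hDs' (Finset.empty_subset (F V S)) (hF1 V S)
          simpa using this
        have h6 := mul_le_mul_of_nonneg_left h5 (hγ S)
        linarith
    · rw [if_neg (fun h => hne h.1)]
      rw [Finset.not_nonempty_iff_eq_empty, Finset.sdiff_eq_empty_iff_subset] at hne
      have h3 : S \ V = S \ O := by
        ext x
        simp only [Finset.mem_sdiff]
        constructor
        · rintro ⟨hx, hx2⟩
          exact ⟨hx, fun hV => hx2 (hOV hV)⟩
        · rintro ⟨hx, hx2⟩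
          exact ⟨hx, fun hU => hx2 (hne (Finset.mem_inter.mpr ⟨hx, hU⟩))⟩
      have h4 : F O S ⊆ F V S := by
        intro x hx
        apply hFV S
        rw [mem_sdiff]
        refine ⟨hx, fun hxV => ?_⟩
        have : x ∈ S \ V := by rw [h3]; exact hF1 _ _ hx
        exact (mem_sdiff.mp this).2 hxV
      have h5 : ee F s D V S ≤ ee F s D O S := by
        unfold ee
        rw [← h3]
        exact pow_flag_le hs hD hDs' h4 (hF1 V S)
      have h6 := mul_le_mul_of_nonneg_left h5 (hγ S)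
      linarith
  -- bound of the unflagged mass
  have hun : ∑ S : Finset α, (if ((S ∩ V) \ O).Nonempty ∧ ¬ (S ∩ V) \ O ⊆ F O S then
          γ S * s ^ (S \ V).card else 0) ≤ (1 + N⁻¹) ^ ν - 1 := by
    have h1 : ∀ S : Finset α, (if ((S ∩ V) \ O).Nonempty ∧ ¬ (S ∩ V) \ O ⊆ F O S then
          γ S * s ^ (S \ V).card else 0) ≤ ∑ Y ∈ (V \ O).powerset.erase ∅,
          (if Y = (S ∩ V) \ O ∧ ¬ Y ⊆ F O S then γ S * s ^ ((S \ O) \ Y).card else 0) := by
      intro S
      have hnn : ∀ Y ∈ (V \ O).powerset.erase ∅, 0 ≤ (if Y = (S ∩ V) \ O ∧ ¬ Y ⊆ F O S then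
          γ S * s ^ ((S \ O) \ Y).card else 0) := by
        intro Y _
        split_ifs
        · exact mul_nonneg (hγ S) (pow_nonneg hs _)
        · exact le_refl _
      by_cases h : ((S ∩ V) \ O).Nonempty ∧ ¬ (S ∩ V) \ O ⊆ F O S
      · rw [if_pos h]
        have h2 : (S ∩ V) \ O ∈ (V \ O).powerset.erase ∅ := by
          rw [mem_erase, mem_powerset]
          exact ⟨Finset.nonempty_iff_ne_empty.mp h.1,
            Finset.sdiff_subset_sdiff Finset.inter_subset_right (Finset.Subset.refl _)⟩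
        have h3 := Finset.single_le_sum hnn h2
        rw [if_pos ⟨rfl, h.2⟩] at h3
        have h4 : (S \ O) \ ((S ∩ V) \ O) = S \ V := by
          ext x
          simp only [Finset.mem_sdiff, Finset.mem_inter]
          constructor
          · rintro ⟨⟨hx, hx2⟩, hx3⟩
            exact ⟨hx, fun hV => hx3 ⟨⟨hx, hV⟩, hx2⟩⟩
          · rintro ⟨hx, hx2⟩
            exact ⟨⟨hx, fun hO => hx2 (hOV hO)⟩, fun h5 => hx2 h5.1.2⟩
        rw [h4] at h3
        exact h3
      · rw [if_neg h]
        exact Finset.sum_nonneg hnn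
    calc _ ≤ ∑ S : Finset α, ∑ Y ∈ (V \ O).powerset.erase ∅,
          (if Y = (S ∩ V) \ O ∧ ¬ Y ⊆ F O S then γ S * s ^ ((S \ O) \ Y).card else 0) :=
          Finset.sum_le_sum fun S _ => h1 S
      _ = ∑ Y ∈ (V \ O).powerset.erase ∅, ∑ S : Finset α,
          (if Y = (S ∩ V) \ O ∧ ¬ Y ⊆ F O S then γ S * s ^ ((S \ O) \ Y).card else 0) :=
          Finset.sum_comm
      _ ≤ ∑ Y ∈ (V \ O).powerset.erase ∅, (N⁻¹) ^ Y.card := by
          refine Finset.sum_le_sum fun Y hY => ?_
          rw [mem_erase, mem_powerset] at hY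
          by_cases hex : ∃ S : Finset α, Y = (S ∩ V) \ O ∧ ¬ Y ⊆ F O S
          · obtain ⟨S0, hS0, hS1⟩ := hex
            have hYS0 : Y ⊆ S0 \ O := by
              rw [hS0]; exact Finset.sdiff_subset_sdiff Finset.inter_subset_left
                (Finset.Subset.refl _)
            refine le_trans ?_ (hF3 O S0 Y hO (Finset.nonempty_iff_ne_empty.mpr hY.1) hYS0 hS1)
            unfold II
            refine Finset.sum_le_sum fun S _ => ?_
            by_cases h : Y = (S ∩ V) \ O ∧ ¬ Y ⊆ F O S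
            · rw [if_pos h]
              have hYS : Y ⊆ S \ O := by
                rw [h.1]; exact Finset.sdiff_subset_sdiff Finset.inter_subset_left
                  (Finset.Subset.refl _)
              rw [if_pos hYS]
            · rw [if_neg h]
              split_ifs
              · exact mul_nonneg (hγ S) (pow_nonneg hs _)
              · exact le_refl _
          · push Not at hex
            rw [Finset.sum_eq_zero]
            · exact pow_nonneg (inv_nonneg.mpr hN.le) _
            · intro S _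
              rw [if_neg]
              rintro ⟨h, h'⟩
              exact h' (hex S h)
      _ ≤ _ := unflagged_le hN hν
  have hsum := Finset.sum_le_sum (fun S (_ : S ∈ (univ : Finset (Finset α))) => hsplit S)
  rw [Finset.sum_add_distrib, Finset.sum_add_distrib] at hsum
  have e1 : ∑ S : Finset α, γ S * (∑ Y ∈ V.powerset,
      (if Y.Nonempty ∧ Disjoint Y O ∧ Y ⊆ F O S then ee F s D (O ∪ Y) S else 0))
      = ∑ Y ∈ V.powerset, TT γ F s D O Y := by
    simp_rw [hTT, Finset.mul_sum]
    rw [Finset.sum_comm]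
  rw [e1] at hsum
  unfold LamD
  linarith

end

end Vale.Agent.H28.P034
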